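import Mathlib

/-!
# Row 211, module B3: transfer from the standard tetrahedron to an arbitrary regular tetrahedron

* `exists_similarity`: a regular tetrahedron with edge length `ℓ` is the image of the standard
  tetrahedron `K0` (vertices `(±1,0,0)`, `(0,±1,√2)`, edge length `2`) under a similarity
  `x ↦ (ℓ/2) • R x + t` with `R` a linear isometry.
* `proj_image_similarity`, `measure_similarity`: behaviour of orthogonal projections and of `μHE[2]`
  under such similarities.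
* `regular_proj_of`: lower bound / finiteness of the projection areas of a regular tetrahedron,
  from the corresponding facts for `K0` (taken as hypotheses; proved by helper3).
-/

set_option autoImplicit false
open MeasureTheory
open scoped ENNReal Pointwise

namespace Crest.Agent.Helper18

/-- ambient Euclidean 3-space -/
abbrev E3 := EuclideanSpace ℝ (Fin 3)

lemma orthonormal_three (f0 f1 f2 : E3) (h00 : inner ℝ f0 f0 = (1:ℝ))
    (h11 : inner ℝ f1 f1 = (1:ℝ)) (h22 : inner ℝ f2 f2 = (1:ℝ)) (h01 : inner ℝ f0 f1 = (0:ℝ))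
    (h02 : inner ℝ f0 f2 = (0:ℝ)) (h12 : inner ℝ f1 f2 = (0:ℝ)) :
    Orthonormal ℝ ![f0, f1, f2] := by
  have h10 : inner ℝ f1 f0 = (0:ℝ) := by rw [real_inner_comm]; exact h01
  have h20 : inner ℝ f2 f0 = (0:ℝ) := by rw [real_inner_comm]; exact h02
  have h21 : inner ℝ f2 f1 = (0:ℝ) := by rw [real_inner_comm]; exact h12
  rw [orthonormal_iff_ite]
  intro i j
  fin_cases i <;> fin_cases j
  · exact h00
  · exact h01
  · exact h02
  · exact h10
  · exact h11
  · exact h12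
  · exact h20
  · exact h21
  · exact h22

lemma frame_aux (A B C : E3) (ℓ : ℝ) (hℓ : 0 < ℓ)
    (hAA : inner ℝ A A = ℓ ^ 2) (hBB : inner ℝ B B = ℓ ^ 2) (hCC : inner ℝ C C = ℓ ^ 2)
    (hAB : inner ℝ A B = ℓ ^ 2 / 2) (hAC : inner ℝ A C = ℓ ^ 2 / 2)
    (hBC : inner ℝ B C = ℓ ^ 2 / 2) :
    Orthonormal ℝ ![(-(1 / ℓ)) • A, (1 / ℓ) • (B - C),
      (1 / (ℓ * Real.sqrt 2)) • (B + C - A)] := by
  have hBA : inner ℝ B A = ℓ ^ 2 / 2 := by rw [real_inner_comm]; exact hAB
  have hCA : inner ℝ C A = ℓ ^ 2 / 2 := by rw [real_inner_comm]; exact hAC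
  have hCB : inner ℝ C B = ℓ ^ 2 / 2 := by rw [real_inner_comm]; exact hBC
  have hℓ' : ℓ ≠ 0 := hℓ.ne'
  have hs : Real.sqrt 2 ≠ 0 := by positivity
  have hs2 : Real.sqrt 2 ^ 2 = 2 := Real.sq_sqrt (by norm_num)
  apply orthonormal_three <;>
    simp only [inner_add_left, inner_sub_left, inner_add_right, inner_sub_right,
      real_inner_smul_left, real_inner_smul_right,
      hAA, hBB, hCC, hAB, hAC, hBC, hBA, hCA, hCB] <;> field_simp <;>
    first | ring1 | (rw [hs2]; ring1)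

lemma inner_edge_self (w : Fin 4 → E3) (ℓ : ℝ) (hw : ∀ i j, i ≠ j → dist (w i) (w j) = ℓ)
    (i : Fin 4) (hi : i ≠ 0) :
    inner ℝ (w i - w 0) (w i - w 0) = ℓ ^ 2 := by
  rw [real_inner_self_eq_norm_sq, ← dist_eq_norm, hw i 0 hi]

lemma inner_edge_ne (w : Fin 4 → E3) (ℓ : ℝ) (hw : ∀ i j, i ≠ j → dist (w i) (w j) = ℓ)
    (i j : Fin 4) (hi : i ≠ 0) (hj : j ≠ 0) (hij : i ≠ j) :
    inner ℝ (w i - w 0) (w j - w 0) = ℓ ^ 2 / 2 := by
  have h1 : ‖w i - w 0‖ = ℓ := by rw [← dist_eq_norm, hw i 0 hi]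
  have h2 : ‖w j - w 0‖ = ℓ := by rw [← dist_eq_norm, hw j 0 hj]
  have h3 : ‖(w i - w 0) - (w j - w 0)‖ = ℓ := by
    rw [show (w i - w 0) - (w j - w 0) = w i - w j by abel, ← dist_eq_norm, hw i j hij]
  have h4 := norm_sub_sq_real (w i - w 0) (w j - w 0)
  rw [h1, h2, h3] at h4
  linarith

/-- **B3a.** Every regular tetrahedron of edge length `ℓ` is the image of the standard tetrahedron
under a similarity of ratio `ℓ / 2`. -/
theorem exists_similarity (w : Fin 4 → E3) (ℓ : ℝ) (hℓ : 0 < ℓ)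
    (hw : ∀ i j, i ≠ j → dist (w i) (w j) = ℓ) :
    ∃ (R : E3 ≃ₗᵢ[ℝ] E3) (t : E3), convexHull ℝ (Set.range w) =
      (fun x => (ℓ / 2) • R x + t) '' convexHull ℝ
        {!₂[1, 0, 0], !₂[-1, 0, 0], !₂[0, 1, Real.sqrt 2], !₂[0, -1, Real.sqrt 2]} := by
  have hon := frame_aux (w 1 - w 0) (w 2 - w 0) (w 3 - w 0) ℓ hℓ
    (inner_edge_self w ℓ hw 1 (by decide)) (inner_edge_self w ℓ hw 2 (by decide))
    (inner_edge_self w ℓ hw 3 (by decide))
    (inner_edge_ne w ℓ hw 1 2 (by decide) (by decide) (by decide))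
    (inner_edge_ne w ℓ hw 1 3 (by decide) (by decide) (by decide))
    (inner_edge_ne w ℓ hw 2 3 (by decide) (by decide) (by decide))
  set f0 : E3 := (-(1 / ℓ)) • (w 1 - w 0) with hf0
  set f1 : E3 := (1 / ℓ) • ((w 2 - w 0) - (w 3 - w 0)) with hf1
  set f2 : E3 := (1 / (ℓ * Real.sqrt 2)) • ((w 2 - w 0) + (w 3 - w 0) - (w 1 - w 0)) with hf2
  have hℓ' : ℓ ≠ 0 := hℓ.ne'
  have hs : Real.sqrt 2 ≠ 0 := by positivity
  let bas := basisOfOrthonormalOfCardEqFinrank hon (by simp)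
  have hbas : (bas : Fin 3 → E3) = ![f0, f1, f2] := coe_basisOfOrthonormalOfCardEqFinrank hon _
  let ob : OrthonormalBasis (Fin 3) ℝ E3 := bas.toOrthonormalBasis (by rw [hbas]; exact hon)
  have hob : (ob : Fin 3 → E3) = ![f0, f1, f2] := by
    rw [Module.Basis.coe_toOrthonormalBasis, hbas]
  let R : E3 ≃ₗᵢ[ℝ] E3 := ob.repr.symm
  have hR : ∀ x : E3, R x = x 0 • f0 + x 1 • f1 + x 2 • f2 := by
    intro x
    show ob.repr.symm x = _
    rw [← ob.sum_repr_symm, Fin.sum_univ_three, hob]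
    rfl
  refine ⟨R, w 0 - (ℓ / 2) • R !₂[1, 0, 0], ?_⟩
  let Φ : E3 →ᵃ[ℝ] E3 := ((ℓ / 2) • R.toLinearEquiv.toLinearMap).toAffineMap +
    AffineMap.const ℝ E3 (w 0 - (ℓ / 2) • R !₂[1, 0, 0])
  have hΦ : (fun x => (ℓ / 2) • R x + (w 0 - (ℓ / 2) • R !₂[1, 0, 0])) = ⇑Φ := by
    funext x
    simp [Φ]
  rw [hΦ, AffineMap.image_convexHull]
  congr 1
  have hrange : Set.range w = {w 0, w 1, w 2, w 3} := by
    ext x
    simp only [Set.mem_range, Set.mem_insert_iff, Set.mem_singleton_iff]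
    constructor
    · rintro ⟨i, rfl⟩
      fin_cases i <;> simp
    · rintro (rfl | rfl | rfl | rfl) <;> exact ⟨_, rfl⟩
  have h0 : Φ !₂[1, 0, 0] = w 0 := by
    simp [Φ]
  have h1 : Φ !₂[-1, 0, 0] = w 1 := by
    simp only [Φ, AffineMap.coe_add, LinearMap.coe_toAffineMap, AffineMap.coe_const, Pi.add_apply,
      LinearMap.smul_apply, Function.const_apply, LinearEquiv.coe_coe,
      LinearIsometryEquiv.coe_toLinearEquiv, hR]
    simp [hf0, hf1, hf2]
    match_scalars <;> field_simp <;> ring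
  have h2 : Φ !₂[0, 1, Real.sqrt 2] = w 2 := by
    simp only [Φ, AffineMap.coe_add, LinearMap.coe_toAffineMap, AffineMap.coe_const, Pi.add_apply,
      LinearMap.smul_apply, Function.const_apply, LinearEquiv.coe_coe,
      LinearIsometryEquiv.coe_toLinearEquiv, hR]
    simp [hf0, hf1, hf2]
    match_scalars <;> field_simp <;> ring
  have h3 : Φ !₂[0, -1, Real.sqrt 2] = w 3 := by
    simp only [Φ, AffineMap.coe_add, LinearMap.coe_toAffineMap, AffineMap.coe_const, Pi.add_apply,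
      LinearMap.smul_apply, Function.const_apply, LinearEquiv.coe_coe,
      LinearIsometryEquiv.coe_toLinearEquiv, hR]
    simp [hf0, hf1, hf2]
    match_scalars <;> field_simp <;> ring
  rw [hrange, Set.image_insert_eq, Set.image_insert_eq, Set.image_insert_eq, Set.image_singleton,
    h0, h1, h2, h3]

/-- Orthogonal projection along `v` of a similar image = similar image of the projection along
`R⁻¹ v`. -/
lemma proj_image_similarity (R : E3 ≃ₗᵢ[ℝ] E3) (t : E3) (c : ℝ) (S : Set E3) (v : E3) :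
    (fun y => y - inner ℝ y v • v) '' ((fun x => c • R x + t) '' S) =
      (fun z => c • R z + (t - inner ℝ t v • v)) ''
        ((fun y => y - inner ℝ y (R.symm v) • R.symm v) '' S) := by
  rw [Set.image_image, Set.image_image]
  apply Set.image_congr
  intro x _
  have h1 : inner ℝ x (R.symm v) = inner ℝ (R x) v := by
    rw [← R.inner_map_map, R.apply_symm_apply]
  simp only [map_sub, map_smul, R.apply_symm_apply, h1, inner_add_left, real_inner_smul_left]
  module

/-- `μHE[2]` scales by the square of the ratio under a similarity. -/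
lemma measure_similarity (R : E3 ≃ₗᵢ[ℝ] E3) (t : E3) (c : ℝ) (hc : c ≠ 0) (S : Set E3) :
    μHE[2] ((fun z => c • R z + t) '' S) = ENNReal.ofReal (c ^ 2) * μHE[2] S := by
  have h1 : (fun z => c • R z + t) '' S = (fun y => y + t) '' (c • (R '' S)) := by
    rw [← Set.image_smul, Set.image_image, Set.image_image]
  rw [h1, (isometry_add_right t).euclideanHausdorffMeasure_image,
    Measure.euclideanHausdorffMeasure_smul₀ 2 hc, R.isometry.euclideanHausdorffMeasure_image]
  rw [ENNReal.smul_def, smul_eq_mul]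
  congr 1
  rw [ENNReal.ofReal, ENNReal.coe_inj]
  ext
  rw [Real.coe_toNNReal _ (sq_nonneg c)]
  simp

/-- **B3b** (relative to the two facts about the standard tetrahedron, proved by helper3):
every orthogonal projection of a regular tetrahedron of edge `ℓ` has finite area at least
`√2 (ℓ/2)²`. -/
theorem regular_proj_of
    (hK1 : ∀ v : E3, ‖v‖ = 1 → ENNReal.ofReal (Real.sqrt 2) ≤
      μHE[2] ((fun y => y - inner ℝ y v • v) '' convexHull ℝ
        {!₂[1, 0, 0], !₂[-1, 0, 0], !₂[0, 1, Real.sqrt 2], !₂[0, -1, Real.sqrt 2]}))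
    (hK2 : ∀ v : E3, ‖v‖ = 1 →
      μHE[2] ((fun y => y - inner ℝ y v • v) '' convexHull ℝ
        {!₂[1, 0, 0], !₂[-1, 0, 0], !₂[0, 1, Real.sqrt 2], !₂[0, -1, Real.sqrt 2]}) ≠ ⊤)
    (w : Fin 4 → E3) (ℓ : ℝ) (hℓ : 0 < ℓ)
    (hw : ∀ i j, i ≠ j → dist (w i) (w j) = ℓ) (v : E3) (hv : ‖v‖ = 1) :
    ENNReal.ofReal (Real.sqrt 2 * (ℓ / 2) ^ 2) ≤
        μHE[2] ((fun y => y - inner ℝ y v • v) '' convexHull ℝ (Set.range w)) ∧
      μHE[2] ((fun y => y - inner ℝ y v • v) '' convexHull ℝ (Set.range w)) ≠ ⊤ := by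
  obtain ⟨R, t, hRt⟩ := exists_similarity w ℓ hℓ hw
  have hv' : ‖R.symm v‖ = 1 := by rw [R.symm.norm_map, hv]
  have hc : ℓ / 2 ≠ 0 := by positivity
  rw [hRt, proj_image_similarity, measure_similarity _ _ _ hc]
  constructor
  · rw [mul_comm (Real.sqrt 2), ENNReal.ofReal_mul (by positivity)]
    exact mul_le_mul_right (hK1 _ hv') _
  · exact ENNReal.mul_ne_top ENNReal.ofReal_ne_top (hK2 _ hv')

end Crest.Agent.Helper18
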