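import Mathlib
import Crest.Agent.Helper18.Similarity

/-!
# Row 211: assembly of S0327 from the team's modules

Everything that is proved elsewhere (explicit cover of the standard tetrahedron, strips, area kit,
projections of the standard tetrahedron) enters as an explicit hypothesis.
-/

set_option autoImplicit false
open MeasureTheory
open scoped ENNReal

namespace Crest.Agent.Helper18

/-- `ParCover K S`: the set `K` is covered by finitely many cylinders over nondegenerate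
parallelograms (`c i + [0,1] a i + [0,1] b i` in `(u i)^⊥`) of total area (Gram formula) `≤ S`. -/
def ParCover (K : Set E3) (S : ℝ) : Prop :=
  ∃ (k : ℕ) (u c a b : Fin k → E3),
    (∀ i, ‖u i‖ = 1) ∧
    (∀ i, inner ℝ (c i) (u i) = 0 ∧ inner ℝ (a i) (u i) = 0 ∧ inner ℝ (b i) (u i) = 0) ∧
    (∀ i, 0 < ‖a i‖ ^ 2 * ‖b i‖ ^ 2 - inner ℝ (a i) (b i) ^ 2) ∧
    K ⊆ ⋃ i, {x : E3 | ∃ s ∈ Set.Icc (0 : ℝ) 1, ∃ t ∈ Set.Icc (0 : ℝ) 1, ∃ τ : ℝ,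
      x = c i + s • a i + t • b i + τ • u i} ∧
    ∑ i, Real.sqrt (‖a i‖ ^ 2 * ‖b i‖ ^ 2 - inner ℝ (a i) (b i) ^ 2) ≤ S

lemma gram_smul (lam : ℝ) (a b : E3) :
    ‖lam • a‖ ^ 2 * ‖lam • b‖ ^ 2 - inner ℝ (lam • a) (lam • b) ^ 2 =
      lam ^ 4 * (‖a‖ ^ 2 * ‖b‖ ^ 2 - inner ℝ a b ^ 2) := by
  rw [norm_smul, norm_smul, real_inner_smul_left, real_inner_smul_right, Real.norm_eq_abs]
  have h := sq_abs lam
  have h2 : (|lam| * ‖a‖) ^ 2 * (|lam| * ‖b‖) ^ 2 = lam ^ 4 * (‖a‖ ^ 2 * ‖b‖ ^ 2) := by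
    calc (|lam| * ‖a‖) ^ 2 * (|lam| * ‖b‖) ^ 2 = (|lam| ^ 2) ^ 2 * (‖a‖ ^ 2 * ‖b‖ ^ 2) := by ring
      _ = lam ^ 4 * (‖a‖ ^ 2 * ‖b‖ ^ 2) := by rw [h]; ring
  rw [h2]; ring

lemma gram_smul_map (R : E3 ≃ₗᵢ[ℝ] E3) (lam : ℝ) (a b : E3) :
    ‖lam • R a‖ ^ 2 * ‖lam • R b‖ ^ 2 - inner ℝ (lam • R a) (lam • R b) ^ 2 =
      lam ^ 4 * (‖a‖ ^ 2 * ‖b‖ ^ 2 - inner ℝ a b ^ 2) := by
  rw [gram_smul, R.norm_map, R.norm_map, R.inner_map_map]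

lemma sqrt_pow_four_mul (lam : ℝ) (G : ℝ) : Real.sqrt (lam ^ 4 * G) = lam ^ 2 * Real.sqrt G := by
  rw [Real.sqrt_mul (by positivity), show lam ^ 4 = (lam ^ 2) ^ 2 by ring,
    Real.sqrt_sq (sq_nonneg lam)]

/-- Transport of a parallelogram cover under a similarity. -/
lemma ParCover.similarity {K : Set E3} {S : ℝ} (h : ParCover K S) (R : E3 ≃ₗᵢ[ℝ] E3) (t : E3)
    (lam : ℝ) (hlam : 0 < lam) :
    ParCover ((fun x => lam • R x + t) '' K) (lam ^ 2 * S) := by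
  obtain ⟨k, u, c, a, b, hu, hperp, hnd, hcov, hsum⟩ := h
  refine ⟨k, fun i => R (u i), fun i => lam • R (c i) + (t - inner ℝ t (R (u i)) • R (u i)),
    fun i => lam • R (a i), fun i => lam • R (b i), ?_, ?_, ?_, ?_, ?_⟩
  · intro i
    rw [R.norm_map]
    exact hu i
  · intro i
    obtain ⟨h1, h2, h3⟩ := hperp i
    have huu : inner ℝ (R (u i)) (R (u i)) = (1:ℝ) := by
      rw [real_inner_self_eq_norm_sq, R.norm_map, hu i]; norm_num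
    refine ⟨?_, ?_, ?_⟩
    · rw [inner_add_left, inner_sub_left, real_inner_smul_left, real_inner_smul_left,
        R.inner_map_map, h1, huu]
      ring
    · rw [real_inner_smul_left, R.inner_map_map, h2]; ring
    · rw [real_inner_smul_left, R.inner_map_map, h3]; ring
  · intro i
    rw [gram_smul_map]
    have := hnd i
    positivity
  · rintro y ⟨x, hx, rfl⟩
    obtain ⟨i, hi⟩ := Set.mem_iUnion.mp (hcov hx)
    obtain ⟨s, hs, t', ht', τ, rfl⟩ := hi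
    refine Set.mem_iUnion.mpr ⟨i, s, hs, t', ht', lam * τ + inner ℝ t (R (u i)), ?_⟩
    simp only [map_add, map_smul]
    module
  · have e : ∀ i, Real.sqrt (‖lam • R (a i)‖ ^ 2 * ‖lam • R (b i)‖ ^ 2 -
        inner ℝ (lam • R (a i)) (lam • R (b i)) ^ 2) =
        lam ^ 2 * Real.sqrt (‖a i‖ ^ 2 * ‖b i‖ ^ 2 - inner ℝ (a i) (b i) ^ 2) := by
      intro i
      rw [gram_smul_map, sqrt_pow_four_mul]
    simp only [e]
    rw [← Finset.mul_sum]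
    exact mul_le_mul_of_nonneg_left hsum (by positivity)

/-- From a cover of a set by cylinders over nondegenerate triangles and the strips lemma: a
parallelogram cover with almost the same total area. -/
lemma parCover_of_triangles {K : Set E3} (θ₀ : ℝ) (hθ₀ : 0 < θ₀)
    (hF : ∃ (m : ℕ) (u p q r : Fin m → E3), (∀ i, ‖u i‖ = 1) ∧
      (∀ i, inner ℝ (p i) (u i) = 0 ∧ inner ℝ (q i) (u i) = 0 ∧ inner ℝ (r i) (u i) = 0) ∧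
      (∀ i, 0 < ‖q i - p i‖ ^ 2 * ‖r i - p i‖ ^ 2 - inner ℝ (q i - p i) (r i - p i) ^ 2) ∧
      K ⊆ ⋃ i, {x : E3 | ∃ b ∈ convexHull ℝ {p i, q i, r i}, ∃ t : ℝ, x = b + t • u i} ∧
      ∑ i, Real.sqrt (‖q i - p i‖ ^ 2 * ‖r i - p i‖ ^ 2 - inner ℝ (q i - p i) (r i - p i) ^ 2) / 2 ≤
        Real.sqrt 2 * (1 / 2 - θ₀))
    (hG1 : ∀ (m : ℕ) (u p q r : Fin m → E3) (_ : ∀ i, ‖u i‖ = 1)
      (_ : ∀ i, inner ℝ (p i) (u i) = 0 ∧ inner ℝ (q i) (u i) = 0 ∧ inner ℝ (r i) (u i) = 0)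
      (_ : ∀ i, 0 < ‖q i - p i‖ ^ 2 * ‖r i - p i‖ ^ 2 - inner ℝ (q i - p i) (r i - p i) ^ 2)
      (n : ℕ) (_ : 0 < n),
      ∃ (k : ℕ) (u' c a b : Fin k → E3), (∀ i, ‖u' i‖ = 1) ∧
        (∀ i, inner ℝ (c i) (u' i) = 0 ∧ inner ℝ (a i) (u' i) = 0 ∧ inner ℝ (b i) (u' i) = 0) ∧
        (∀ i, 0 < ‖a i‖ ^ 2 * ‖b i‖ ^ 2 - inner ℝ (a i) (b i) ^ 2) ∧
        (⋃ i, {x : E3 | ∃ y ∈ convexHull ℝ {p i, q i, r i}, ∃ t : ℝ, x = y + t • u i}) ⊆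
          ⋃ i, {x : E3 | ∃ s ∈ Set.Icc (0 : ℝ) 1, ∃ t ∈ Set.Icc (0 : ℝ) 1, ∃ τ : ℝ,
            x = c i + s • a i + t • b i + τ • u' i} ∧
        ∑ i, Real.sqrt (‖a i‖ ^ 2 * ‖b i‖ ^ 2 - inner ℝ (a i) (b i) ^ 2) =
          (1 + 1 / (n : ℝ)) *
            ∑ i, Real.sqrt (‖q i - p i‖ ^ 2 * ‖r i - p i‖ ^ 2 - inner ℝ (q i - p i) (r i - p i) ^ 2) / 2) :
    ParCover K (Real.sqrt 2 * (1 / 2 - θ₀ / 2)) := by
  obtain ⟨m, u, p, q, r, hu, hperp, hnd, hcov, hsum⟩ := hF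
  have hn : 0 < ⌈1 / θ₀⌉₊ + 1 := Nat.succ_pos _
  obtain ⟨k, u', c, a, b, hu', hperp', hnd', hcov', hsum'⟩ :=
    hG1 m u p q r hu hperp hnd (⌈1 / θ₀⌉₊ + 1) hn
  refine ⟨k, u', c, a, b, hu', hperp', hnd', hcov.trans hcov', ?_⟩
  rw [hsum']
  set x : ℝ := 1 / ((⌈1 / θ₀⌉₊ + 1 : ℕ) : ℝ) with hx
  have hN : 1 / θ₀ ≤ ((⌈1 / θ₀⌉₊ + 1 : ℕ) : ℝ) := by
    have := Nat.le_ceil (1 / θ₀)
    push_cast
    linarith
  have hNpos : (0:ℝ) < ((⌈1 / θ₀⌉₊ + 1 : ℕ) : ℝ) := by exact_mod_cast hn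
  have hx0 : 0 ≤ x := by rw [hx]; positivity
  have hx1 : x ≤ θ₀ := by
    rw [hx, div_le_iff₀ hNpos]
    calc (1:ℝ) = θ₀ * (1 / θ₀) := by field_simp
      _ ≤ θ₀ * ((⌈1 / θ₀⌉₊ + 1 : ℕ) : ℝ) := by gcongr
  have hs2 : 0 < Real.sqrt 2 := by positivity
  calc (1 + x) * ∑ i, Real.sqrt (‖q i - p i‖ ^ 2 * ‖r i - p i‖ ^ 2 -
          inner ℝ (q i - p i) (r i - p i) ^ 2) / 2
      ≤ (1 + x) * (Real.sqrt 2 * (1 / 2 - θ₀)) := by gcongr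
    _ ≤ Real.sqrt 2 * (1 / 2 - θ₀ / 2) := by
        nlinarith [mul_nonneg hs2.le (sub_nonneg.mpr hx1), mul_nonneg hs2.le (mul_nonneg hx0 hθ₀.le)]

/-- Part (1) of the S0327 shape for a set `K` with a parallelogram cover of total area below
`P₀ (1/2 - θ)`, where `P₀` bounds all projection areas of `K` from below. -/
theorem part1_of {K : Set E3} {S P₀ θ : ℝ} (hP₀ : 0 < P₀) (hθ : 0 < θ)
    (hS : S ≤ P₀ * (1 / 2 - θ)) (hcov : ParCover K S)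
    (hproj : ∀ v : E3, ‖v‖ = 1 →
      ENNReal.ofReal P₀ ≤ μHE[2] ((fun y => y - inner ℝ y v • v) '' K) ∧
      μHE[2] ((fun y => y - inner ℝ y v • v) '' K) ≠ ⊤)
    (hA2 : ∀ c a b : E3, μHE[2] {x : E3 | ∃ s ∈ Set.Icc (0 : ℝ) 1, ∃ t ∈ Set.Icc (0 : ℝ) 1,
      x = c + s • a + t • b} = ENNReal.ofReal (Real.sqrt (‖a‖ ^ 2 * ‖b‖ ^ 2 - inner ℝ a b ^ 2))) :
    ∃ (k : ℕ) (u c a b : Fin k → EuclideanSpace ℝ (Fin 3)),
      (∀ i, ‖u i‖ = 1) ∧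
      (∀ i, inner ℝ (c i) (u i) = 0 ∧ inner ℝ (a i) (u i) = 0 ∧ inner ℝ (b i) (u i) = 0) ∧
      K ⊆ ⋃ i, {x : EuclideanSpace ℝ (Fin 3) |
        ∃ s ∈ Set.Icc (0 : ℝ) 1, ∃ t ∈ Set.Icc (0 : ℝ) 1, ∃ τ : ℝ, x = c i + s • a i + t • b i + τ • u i} ∧
      (∃ δ : ℝ, 0 < δ ∧ ∀ v : EuclideanSpace ℝ (Fin 3), ‖v‖ = 1 →
        (∑ i, (μHE[2] {x : EuclideanSpace ℝ (Fin 3) |
            ∃ s ∈ Set.Icc (0 : ℝ) 1, ∃ t ∈ Set.Icc (0 : ℝ) 1, x = c i + s • a i + t • b i}).toReal) + δ ≤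
          (μHE[2] ((fun y => y - inner ℝ y v • v) '' K)).toReal / 2) ∧
      ∑ i, (μHE[2] {x : EuclideanSpace ℝ (Fin 3) |
            ∃ s ∈ Set.Icc (0 : ℝ) 1, ∃ t ∈ Set.Icc (0 : ℝ) 1, x = c i + s • a i + t • b i}).toReal /
          (μHE[2] ((fun y => y - inner ℝ y (u i) • u i) '' K)).toReal < 1 / 2 := by
  obtain ⟨k, u, c, a, b, hu, hperp, hnd, hcovK, hsum⟩ := hcov
  have hP : ∀ v : E3, ‖v‖ = 1 →
      P₀ ≤ (μHE[2] ((fun y => y - inner ℝ y v • v) '' K)).toReal := by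
    intro v hv
    obtain ⟨h1, h2⟩ := hproj v hv
    exact (ENNReal.ofReal_le_iff_le_toReal h2).mp h1
  have harea : ∀ i, (μHE[2] {x : E3 | ∃ s ∈ Set.Icc (0 : ℝ) 1, ∃ t ∈ Set.Icc (0 : ℝ) 1,
      x = c i + s • a i + t • b i}).toReal =
      Real.sqrt (‖a i‖ ^ 2 * ‖b i‖ ^ 2 - inner ℝ (a i) (b i) ^ 2) := by
    intro i
    rw [hA2, ENNReal.toReal_ofReal (Real.sqrt_nonneg _)]
  refine ⟨k, u, c, a, b, hu, hperp, hcovK, ⟨P₀ * θ, by positivity, ?_⟩, ?_⟩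
  · intro v hv
    simp only [harea]
    have := hP v hv
    nlinarith
  · simp only [harea]
    calc ∑ i, Real.sqrt (‖a i‖ ^ 2 * ‖b i‖ ^ 2 - inner ℝ (a i) (b i) ^ 2) /
            (μHE[2] ((fun y => y - inner ℝ y (u i) • u i) '' K)).toReal
        ≤ ∑ i, Real.sqrt (‖a i‖ ^ 2 * ‖b i‖ ^ 2 - inner ℝ (a i) (b i) ^ 2) / P₀ := by
          apply Finset.sum_le_sum
          intro i _
          exact div_le_div_of_nonneg_left (Real.sqrt_nonneg _) hP₀ (hP (u i) (hu i))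
      _ = (∑ i, Real.sqrt (‖a i‖ ^ 2 * ‖b i‖ ^ 2 - inner ℝ (a i) (b i) ^ 2)) / P₀ := by
          rw [Finset.sum_div]
      _ ≤ (P₀ * (1 / 2 - θ)) / P₀ := by
          gcongr
          exact hsum.trans hS
      _ < 1 / 2 := by
          rw [mul_div_cancel_left₀ _ hP₀.ne']
          linarith

/-- Part (2) of the S0327 shape (bounded relatively open bases). -/
theorem part2_of {K : Set E3} {S P₀ θ : ℝ} (hP₀ : 0 < P₀) (hθ : 0 < θ)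
    (hS : S ≤ P₀ * (1 / 2 - θ)) (hcov : ParCover K S)
    (hproj : ∀ v : E3, ‖v‖ = 1 →
      ENNReal.ofReal P₀ ≤ μHE[2] ((fun y => y - inner ℝ y v • v) '' K) ∧
      μHE[2] ((fun y => y - inner ℝ y v • v) '' K) ≠ ⊤)
    (hA2 : ∀ c a b : E3, μHE[2] {x : E3 | ∃ s ∈ Set.Icc (0 : ℝ) 1, ∃ t ∈ Set.Icc (0 : ℝ) 1,
      x = c + s • a + t • b} = ENNReal.ofReal (Real.sqrt (‖a‖ ^ 2 * ‖b‖ ^ 2 - inner ℝ a b ^ 2)))
    (hA3 : ∀ u c a b : E3, ‖u‖ = 1 → inner ℝ c u = 0 → inner ℝ a u = 0 → inner ℝ b u = 0 →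
      0 < ‖a‖ ^ 2 * ‖b‖ ^ 2 - inner ℝ a b ^ 2 →
      Bornology.IsBounded {x : E3 | ∃ s ∈ Set.Ioo (0 : ℝ) 1, ∃ t ∈ Set.Ioo (0 : ℝ) 1,
        x = c + s • a + t • b} ∧
      ∃ O : Set E3, IsOpen O ∧ {x : E3 | ∃ s ∈ Set.Ioo (0 : ℝ) 1, ∃ t ∈ Set.Ioo (0 : ℝ) 1,
        x = c + s • a + t • b} = O ∩ {x | inner ℝ x u = 0}) :
    ∃ (k : ℕ) (u : Fin k → EuclideanSpace ℝ (Fin 3)) (B : Fin k → Set (EuclideanSpace ℝ (Fin 3))),
      (∀ i, ‖u i‖ = 1) ∧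
      (∀ i, Bornology.IsBounded (B i) ∧ ∃ O : Set (EuclideanSpace ℝ (Fin 3)), IsOpen O ∧
        B i = O ∩ {x | inner ℝ x (u i) = 0}) ∧
      K ⊆
        ⋃ i, {x : EuclideanSpace ℝ (Fin 3) | ∃ y ∈ B i, ∃ τ : ℝ, x = y + τ • u i} ∧
      (∃ δ : ℝ, 0 < δ ∧ ∀ v : EuclideanSpace ℝ (Fin 3), ‖v‖ = 1 →
        (∑ i, (μHE[2] (B i)).toReal) + δ ≤
          (μHE[2] ((fun y => y - inner ℝ y v • v) '' K)).toReal / 2) ∧
      ∑ i, (μHE[2] (B i)).toReal /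
          (μHE[2] ((fun y => y - inner ℝ y (u i) • u i) '' K)).toReal < 1 / 2 := by
  obtain ⟨k, u, c, a, b, hu, hperp, hnd, hcovK, hsum⟩ := hcov
  have hP : ∀ v : E3, ‖v‖ = 1 →
      P₀ ≤ (μHE[2] ((fun y => y - inner ℝ y v • v) '' K)).toReal := by
    intro v hv
    obtain ⟨h1, h2⟩ := hproj v hv
    exact (ENNReal.ofReal_le_iff_le_toReal h2).mp h1
  set κ : ℝ := θ / 4 with hκ
  have hκ0 : 0 < κ := by positivity
  set ν : ℝ := 1 + 2 * κ with hν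
  have hν0 : 0 < ν := by positivity
  let c' : Fin k → E3 := fun i => c i - κ • (a i + b i)
  let a' : Fin k → E3 := fun i => ν • a i
  let b' : Fin k → E3 := fun i => ν • b i
  let B : Fin k → Set E3 := fun i => {x : E3 | ∃ s ∈ Set.Ioo (0 : ℝ) 1, ∃ t ∈ Set.Ioo (0 : ℝ) 1,
    x = c' i + s • a' i + t • b' i}
  have hG : ∀ i, ‖a' i‖ ^ 2 * ‖b' i‖ ^ 2 - inner ℝ (a' i) (b' i) ^ 2 =
      ν ^ 4 * (‖a i‖ ^ 2 * ‖b i‖ ^ 2 - inner ℝ (a i) (b i) ^ 2) :=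
    fun i => gram_smul ν (a i) (b i)
  have hB : ∀ i, Bornology.IsBounded (B i) ∧ ∃ O : Set E3, IsOpen O ∧
      B i = O ∩ {x | inner ℝ x (u i) = 0} := by
    intro i
    obtain ⟨h1, h2, h3⟩ := hperp i
    refine hA3 (u i) (c' i) (a' i) (b' i) (hu i) ?_ ?_ ?_ ?_
    · simp only [c', inner_sub_left, real_inner_smul_left, inner_add_left, h1, h2, h3]; ring
    · simp only [a', real_inner_smul_left, h2]; ring
    · simp only [b', real_inner_smul_left, h3]; ring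
    · rw [hG]
      have := hnd i
      positivity
  have hareaB : ∀ i, (μHE[2] (B i)).toReal ≤
      ν ^ 2 * Real.sqrt (‖a i‖ ^ 2 * ‖b i‖ ^ 2 - inner ℝ (a i) (b i) ^ 2) := by
    intro i
    have hsub : B i ⊆ {x : E3 | ∃ s ∈ Set.Icc (0 : ℝ) 1, ∃ t ∈ Set.Icc (0 : ℝ) 1,
        x = c' i + s • a' i + t • b' i} := by
      rintro x ⟨s, hs, t, ht, rfl⟩
      exact ⟨s, Set.Ioo_subset_Icc_self hs, t, Set.Ioo_subset_Icc_self ht, rfl⟩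
    have h1 := (measure_mono (μ := μHE[2]) hsub).trans_eq (hA2 (c' i) (a' i) (b' i))
    rw [hG, sqrt_pow_four_mul] at h1
    exact ENNReal.toReal_le_of_le_ofReal (by positivity) h1
  have hsumB : ∑ i, (μHE[2] (B i)).toReal ≤ P₀ * (1 / 2 - θ / 2) := by
    calc ∑ i, (μHE[2] (B i)).toReal
        ≤ ∑ i, ν ^ 2 * Real.sqrt (‖a i‖ ^ 2 * ‖b i‖ ^ 2 - inner ℝ (a i) (b i) ^ 2) :=
          Finset.sum_le_sum (fun i _ => hareaB i)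
      _ = ν ^ 2 * ∑ i, Real.sqrt (‖a i‖ ^ 2 * ‖b i‖ ^ 2 - inner ℝ (a i) (b i) ^ 2) := by
          rw [Finset.mul_sum]
      _ ≤ ν ^ 2 * (P₀ * (1 / 2 - θ)) := by
          gcongr
          exact hsum.trans hS
      _ ≤ P₀ * (1 / 2 - θ / 2) := by
          have h1 : ν ^ 2 * (1 / 2 - θ) ≤ 1 / 2 - θ / 2 := by
            simp only [hν, hκ]
            nlinarith [sq_nonneg θ, pow_pos hθ 3]
          nlinarith
  refine ⟨k, u, B, hu, hB, ?_, ⟨P₀ * (θ / 2), by positivity, ?_⟩, ?_⟩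
  · intro x hx
    obtain ⟨i, hi⟩ := Set.mem_iUnion.mp (hcovK hx)
    obtain ⟨s, hs, t, ht, τ, rfl⟩ := hi
    refine Set.mem_iUnion.mpr ⟨i, c i + s • a i + t • b i,
      ⟨(s + κ) / ν, ?_, (t + κ) / ν, ?_, ?_⟩, τ, rfl⟩
    · constructor
      · exact div_pos (by linarith [hs.1]) hν0
      · rw [div_lt_one hν0]
        simp only [hν]
        linarith [hs.2]
    · constructor
      · exact div_pos (by linarith [ht.1]) hν0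
      · rw [div_lt_one hν0]
        simp only [hν]
        linarith [ht.2]
    · simp only [c', a', b', smul_smul, div_mul_cancel₀ _ hν0.ne']
      module
  · intro v hv
    have := hP v hv
    linarith
  · calc ∑ i, (μHE[2] (B i)).toReal /
            (μHE[2] ((fun y => y - inner ℝ y (u i) • u i) '' K)).toReal
        ≤ ∑ i, (μHE[2] (B i)).toReal / P₀ := by
          apply Finset.sum_le_sum
          intro i _
          exact div_le_div_of_nonneg_left ENNReal.toReal_nonneg hP₀ (hP (u i) (hu i))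
      _ = (∑ i, (μHE[2] (B i)).toReal) / P₀ := by
          rw [Finset.sum_div]
      _ ≤ (P₀ * (1 / 2 - θ / 2)) / P₀ := by
          gcongr
      _ < 1 / 2 := by
          rw [mul_div_cancel_left₀ _ hP₀.ne']
          linarith

/-- **S0327 from the team's modules.** `hF` = explicit triangle-cylinder cover of the standard
tetrahedron (helper20), `hG1` = strips (helper12), `hA2`, `hA3` = area kit (helper26),
`hK1`, `hK2` = projections of the standard tetrahedron (helper3). The conclusion is the frozen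
statement S0327. -/
theorem s0327_of (θ₀ : ℝ) (hθ₀ : 0 < θ₀)
    (hF : ∃ (m : ℕ) (u p q r : Fin m → E3), (∀ i, ‖u i‖ = 1) ∧
      (∀ i, inner ℝ (p i) (u i) = 0 ∧ inner ℝ (q i) (u i) = 0 ∧ inner ℝ (r i) (u i) = 0) ∧
      (∀ i, 0 < ‖q i - p i‖ ^ 2 * ‖r i - p i‖ ^ 2 - inner ℝ (q i - p i) (r i - p i) ^ 2) ∧
      convexHull ℝ {!₂[1, 0, 0], !₂[-1, 0, 0], !₂[0, 1, Real.sqrt 2], !₂[0, -1, Real.sqrt 2]} ⊆
        ⋃ i, {x : E3 | ∃ b ∈ convexHull ℝ {p i, q i, r i}, ∃ t : ℝ, x = b + t • u i} ∧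
      ∑ i, Real.sqrt (‖q i - p i‖ ^ 2 * ‖r i - p i‖ ^ 2 - inner ℝ (q i - p i) (r i - p i) ^ 2) / 2 ≤
        Real.sqrt 2 * (1 / 2 - θ₀))
    (hG1 : ∀ (m : ℕ) (u p q r : Fin m → E3) (_ : ∀ i, ‖u i‖ = 1)
      (_ : ∀ i, inner ℝ (p i) (u i) = 0 ∧ inner ℝ (q i) (u i) = 0 ∧ inner ℝ (r i) (u i) = 0)
      (_ : ∀ i, 0 < ‖q i - p i‖ ^ 2 * ‖r i - p i‖ ^ 2 - inner ℝ (q i - p i) (r i - p i) ^ 2)
      (n : ℕ) (_ : 0 < n),
      ∃ (k : ℕ) (u' c a b : Fin k → E3), (∀ i, ‖u' i‖ = 1) ∧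
        (∀ i, inner ℝ (c i) (u' i) = 0 ∧ inner ℝ (a i) (u' i) = 0 ∧ inner ℝ (b i) (u' i) = 0) ∧
        (∀ i, 0 < ‖a i‖ ^ 2 * ‖b i‖ ^ 2 - inner ℝ (a i) (b i) ^ 2) ∧
        (⋃ i, {x : E3 | ∃ y ∈ convexHull ℝ {p i, q i, r i}, ∃ t : ℝ, x = y + t • u i}) ⊆
          ⋃ i, {x : E3 | ∃ s ∈ Set.Icc (0 : ℝ) 1, ∃ t ∈ Set.Icc (0 : ℝ) 1, ∃ τ : ℝ,
            x = c i + s • a i + t • b i + τ • u' i} ∧
        ∑ i, Real.sqrt (‖a i‖ ^ 2 * ‖b i‖ ^ 2 - inner ℝ (a i) (b i) ^ 2) =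
          (1 + 1 / (n : ℝ)) *
            ∑ i, Real.sqrt (‖q i - p i‖ ^ 2 * ‖r i - p i‖ ^ 2 - inner ℝ (q i - p i) (r i - p i) ^ 2) / 2)
    (hA2 : ∀ c a b : E3, μHE[2] {x : E3 | ∃ s ∈ Set.Icc (0 : ℝ) 1, ∃ t ∈ Set.Icc (0 : ℝ) 1,
      x = c + s • a + t • b} = ENNReal.ofReal (Real.sqrt (‖a‖ ^ 2 * ‖b‖ ^ 2 - inner ℝ a b ^ 2)))
    (hA3 : ∀ u c a b : E3, ‖u‖ = 1 → inner ℝ c u = 0 → inner ℝ a u = 0 → inner ℝ b u = 0 →
      0 < ‖a‖ ^ 2 * ‖b‖ ^ 2 - inner ℝ a b ^ 2 →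
      Bornology.IsBounded {x : E3 | ∃ s ∈ Set.Ioo (0 : ℝ) 1, ∃ t ∈ Set.Ioo (0 : ℝ) 1,
        x = c + s • a + t • b} ∧
      ∃ O : Set E3, IsOpen O ∧ {x : E3 | ∃ s ∈ Set.Ioo (0 : ℝ) 1, ∃ t ∈ Set.Ioo (0 : ℝ) 1,
        x = c + s • a + t • b} = O ∩ {x | inner ℝ x u = 0})
    (hK1 : ∀ v : E3, ‖v‖ = 1 → ENNReal.ofReal (Real.sqrt 2) ≤
      μHE[2] ((fun y => y - inner ℝ y v • v) '' convexHull ℝ
        {!₂[1, 0, 0], !₂[-1, 0, 0], !₂[0, 1, Real.sqrt 2], !₂[0, -1, Real.sqrt 2]}))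
    (hK2 : ∀ v : E3, ‖v‖ = 1 →
      μHE[2] ((fun y => y - inner ℝ y v • v) '' convexHull ℝ
        {!₂[1, 0, 0], !₂[-1, 0, 0], !₂[0, 1, Real.sqrt 2], !₂[0, -1, Real.sqrt 2]}) ≠ ⊤)
    (w : Fin 4 → EuclideanSpace ℝ (Fin 3)) (ℓ : ℝ) (hℓ : 0 < ℓ)
    (hw : ∀ i j, i ≠ j → dist (w i) (w j) = ℓ) :
    (∃ (k : ℕ) (u c a b : Fin k → EuclideanSpace ℝ (Fin 3)),
      (∀ i, ‖u i‖ = 1) ∧
      (∀ i, inner ℝ (c i) (u i) = 0 ∧ inner ℝ (a i) (u i) = 0 ∧ inner ℝ (b i) (u i) = 0) ∧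
      convexHull ℝ (Set.range w) ⊆ ⋃ i, {x : EuclideanSpace ℝ (Fin 3) |
        ∃ s ∈ Set.Icc (0 : ℝ) 1, ∃ t ∈ Set.Icc (0 : ℝ) 1, ∃ τ : ℝ, x = c i + s • a i + t • b i + τ • u i} ∧
      (∃ δ : ℝ, 0 < δ ∧ ∀ v : EuclideanSpace ℝ (Fin 3), ‖v‖ = 1 →
        (∑ i, (μHE[2] {x : EuclideanSpace ℝ (Fin 3) |
            ∃ s ∈ Set.Icc (0 : ℝ) 1, ∃ t ∈ Set.Icc (0 : ℝ) 1, x = c i + s • a i + t • b i}).toReal) + δ ≤
          (μHE[2] ((fun y => y - inner ℝ y v • v) '' convexHull ℝ (Set.range w))).toReal / 2) ∧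
      ∑ i, (μHE[2] {x : EuclideanSpace ℝ (Fin 3) |
            ∃ s ∈ Set.Icc (0 : ℝ) 1, ∃ t ∈ Set.Icc (0 : ℝ) 1, x = c i + s • a i + t • b i}).toReal /
          (μHE[2] ((fun y => y - inner ℝ y (u i) • u i) '' convexHull ℝ (Set.range w))).toReal < 1 / 2) ∧
    (∃ (k : ℕ) (u : Fin k → EuclideanSpace ℝ (Fin 3)) (B : Fin k → Set (EuclideanSpace ℝ (Fin 3))),
      (∀ i, ‖u i‖ = 1) ∧
      (∀ i, Bornology.IsBounded (B i) ∧ ∃ O : Set (EuclideanSpace ℝ (Fin 3)), IsOpen O ∧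
        B i = O ∩ {x | inner ℝ x (u i) = 0}) ∧
      convexHull ℝ (Set.range w) ⊆
        ⋃ i, {x : EuclideanSpace ℝ (Fin 3) | ∃ y ∈ B i, ∃ τ : ℝ, x = y + τ • u i} ∧
      (∃ δ : ℝ, 0 < δ ∧ ∀ v : EuclideanSpace ℝ (Fin 3), ‖v‖ = 1 →
        (∑ i, (μHE[2] (B i)).toReal) + δ ≤
          (μHE[2] ((fun y => y - inner ℝ y v • v) '' convexHull ℝ (Set.range w))).toReal / 2) ∧
      ∑ i, (μHE[2] (B i)).toReal /
          (μHE[2] ((fun y => y - inner ℝ y (u i) • u i) '' convexHull ℝ (Set.range w))).toReal < 1 / 2) := by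
  obtain ⟨R, t, hRt⟩ := exists_similarity w ℓ hℓ hw
  have hc0 := parCover_of_triangles θ₀ hθ₀ hF hG1
  have hc1 : ParCover (convexHull ℝ (Set.range w))
      ((ℓ / 2) ^ 2 * (Real.sqrt 2 * (1 / 2 - θ₀ / 2))) := by
    rw [hRt]
    exact hc0.similarity R t (ℓ / 2) (by positivity)
  have hproj := fun v hv => regular_proj_of hK1 hK2 w ℓ hℓ hw v hv
  have hP₀ : 0 < Real.sqrt 2 * (ℓ / 2) ^ 2 := by positivity
  have hθ : 0 < θ₀ / 2 := by positivity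
  have hS : (ℓ / 2) ^ 2 * (Real.sqrt 2 * (1 / 2 - θ₀ / 2)) ≤
      Real.sqrt 2 * (ℓ / 2) ^ 2 * (1 / 2 - θ₀ / 2) := le_of_eq (by ring)
  exact ⟨part1_of hP₀ hθ hS hc1 hproj hA2, part2_of hP₀ hθ hS hc1 hproj hA2 hA3⟩

end Crest.Agent.Helper18
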